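import Vale.Agent.Lib.P347.Final

/-!
# P347: a logarithmic query lower bound at every total variation accuracy below one
-/

namespace Vale.Agent.Results.P347.AllAccuracies

open Vale.Agent.Lib.P347

/-- For every accuracy `δ < 1` there are `c > 0` and `C` such that for every `d ≥ 2`, any randomized
adaptive first-order algorithm which with `q` queries samples from `π_V` within total variation `δ`
for every `V ∈ 𝒱_d` has `q ≥ c log d - C`. -/
theorem result : ∀ δ : ℝ, 0 ≤ δ → δ < 1 →
    ∃ c : ℝ, 0 < c ∧ ∃ C : ℝ, ∀ d : ℕ, 2 ≤ d → ∀ q : ℕ,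
      (∃ A : Sampler d, A.Achieves q δ) → c * Real.log d - C ≤ q :=
  fun δ h0 h1 => lower_bound δ h0 h1

end Vale.Agent.Results.P347.AllAccuracies
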