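import Vale.Agent.Lib.P347.Final

/-!
# P347: `Q(d) ≥ c log d - C` at the accuracy `1/10` of the problem
-/

namespace Vale.Agent.Results.P347.LogLowerBound

open Vale.Agent.Lib.P347

/-- There are `c > 0` and `C` such that for every `d ≥ 2`, any randomized adaptive first-order
algorithm which with `q` queries samples from `π_V` within total variation `1/10` for every
`V ∈ 𝒱_d` has `q ≥ c log d - C`; that is, `Q(d) ≥ c log d - C`. -/
theorem result :
    ∃ c : ℝ, 0 < c ∧ ∃ C : ℝ, ∀ d : ℕ, 2 ≤ d → ∀ q : ℕ,
      (∃ A : Sampler d, A.Achieves q (1 / 10)) → c * Real.log d - C ≤ q :=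
  lower_bound (1 / 10) (by norm_num) (by norm_num)

end Vale.Agent.Results.P347.LogLowerBound
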